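import Mathlib
import Vale.Agent.H15.P157.Defs
import Vale.Agent.H15.P157.ClassA

open MeasureTheory ProbabilityTheory Filter Topology

namespace Vale.Agent.Results.P157.AllDensities

open Vale.H15.P157

/-- Ising perceptron with Gaussian patterns: for every density `α > 0` and every potential
`f = log (C - φ)`, where `φ(s) = ∫ cos (a s) dν(a)` is the (real) Fourier transform of a finite
positive measure `ν` with `φ(0) = ν(ℝ) < C`, the limit of `E p_N(f)` as `N → ∞` exists. -/
theorem result (ν : Measure ℝ) [IsFiniteMeasure ν] (C : ℝ) (hC : ν.real Set.univ < C)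
    (α : ℝ) (hα : 0 < α) :
    ∃ L : ℝ, Tendsto (fun N : ℕ =>
      pressure (fun s => Real.log (C - ∫ a, Real.cos (a * s) ∂ν)) α N) atTop (𝓝 L) :=
  classA ν C hC hα

end Vale.Agent.Results.P157.AllDensities
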